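import Vale.Agent.P297.Gen.H516.Last
import Vale.Agent.P297.Gen.H878.Global

/-!
The assembly: from the linear system to the equivalence of points.
-/

set_option linter.unusedSectionVars false
set_option linter.style.haveILetI false

open CategoryTheory AlgebraicGeometry IntermediateField Polynomial

namespace Vale.Agent.P297.Gen

open Vale.Agent.P297 Vale.Agent.P297.H839 Vale.Agent.P297.H516 Vale.Agent.P297.H878

theorem Pencil.eval_emb {K N : Type} [Field K] [Algebra ℂ K] [Field N] [Algebra ℂ N]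
    {l x y : K} {f : (IntermediateField.adjoin ℂ {l})[X]} (h : Pencil l x y f)
    (lam : IntermediateField.adjoin ℂ {l} →ₐ[ℂ] N) (φ : K →ₐ[ℂ] N)
    (hφ : ∀ e : IntermediateField.adjoin ℂ {l}, φ e = lam e) :
    φ y ^ 2 = (f.map lam.toRingHom).eval (φ x) := by
  rw [← map_pow, h.eq, Polynomial.aeval_def, Polynomial.eval_map]
  refine (Polynomial.hom_eval₂ f _ φ.toRingHom x).trans ?_
  congr 1
  exact RingHom.ext fun e => hφ e

section

variable {S : Scheme.{0}} {g : S ⟶ Spec (.of ℂ)} [IsProper g] {C : Type} [CommRing C] [Algebra ℂ C]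
  [Algebra.FiniteType ℂ C] {j : Spec (.of C) ⟶ S}
  {hj : j ≫ g = Spec.map (CommRingCat.ofHom (algebraMap ℂ C))}

/-- The fibre of a map to a rational surface. -/
theorem fibre_sum {K N : Type} [Field K] [Algebra ℂ K] [Field N] [Algebra ℂ N]
    (F : IntermediateField ℂ K) (hF : IsRational F) (x : K)
    (htop : F ⊔ IntermediateField.adjoin ℂ {x} = ⊤) {n : ℕ} (hn : Module.finrank F K = n)
    (hpos : 0 < n) (φ : Fin n → (K →ₐ[ℂ] N)) (hφ : ∀ i i', ∀ k ∈ F, φ i k = φ i' k)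
    (hinj : Function.Injective fun i => φ i x) (ι : C →ₐ[ℂ] K) :
    ∑ i, Finsupp.single ((φ i).comp ι) (1 : ℤ) ∈ Good g j hj (Rat g) N := by
  haveI : FiniteDimensional F K := FiniteDimensional.of_finrank_pos (by omega)
  refine fibre_good F hF x htop n (minpoly F x)
    (minpoly.ne_zero (Algebra.IsIntegral.isIntegral x)) ?_ (minpoly.aeval F x) φ
    (fun i i' k hk => hφ i i' k hk) hinj ι
  rw [← hn]
  exact minpoly.natDegree_le x

theorem asm_two {K N : Type} [Field K] [Algebra ℂ K] [Field N] [Algebra ℂ N] [IsAlgClosed N]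
    {l x y : K} {f : (IntermediateField.adjoin ℂ {l})[X]} (h : Pencil l x y f)
    (h3 : Algebra.trdeg ℂ N ≤ 3) (lam : IntermediateField.adjoin ℂ {l} →ₐ[ℂ] N)
    (L : IntermediateField ℂ N) (hlamL : ∀ e, lam e ∈ L) {n₁ n₂ : ℕ} (hn₁ : 0 < n₁) (hn₂ : 0 < n₂)
    (σ : Fin n₁ ⊕ Fin n₂ → (K →ₐ[ℂ] N))
    (hσ : ∀ i (e : IntermediateField.adjoin ℂ {l}), σ i e = lam e)
    (F₁ F₂ : IntermediateField ℂ K) (hr₁ : IsRational F₁) (hr₂ : IsRational F₂)
    (hx₁ : F₁ ⊔ IntermediateField.adjoin ℂ {x} = ⊤) (hx₂ : F₂ ⊔ IntermediateField.adjoin ℂ {x} = ⊤)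
    (hF₁ : Module.finrank F₁ K = n₁) (hF₂ : Module.finrank F₂ K = n₂)
    (hagree₁ : ∀ i j, ∀ k ∈ F₁, σ (Sum.inl i) k = σ (Sum.inl j) k)
    (hagree₂ : ∀ i j, ∀ k ∈ F₂, σ (Sum.inr i) k = σ (Sum.inr j) k)
    (hinj : Function.Injective fun i => σ i x) {α β : N[X]} {c : N}
    (hdα : 2 * α.natDegree ≤ n₁ + n₂ + 2)
    (hdβ : 2 * β.natDegree + (f.map lam.toRingHom).natDegree ≤ n₁ + n₂ + 2) (hc : c ≠ 0)
    (φA φB : K →ₐ[ℂ] N)
    (hA : ∀ e : IntermediateField.adjoin ℂ {l}, φA e = lam e)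
    (hB : ∀ e : IntermediateField.adjoin ℂ {l}, φB e = lam e)
    (hn : α ^ 2 - β ^ 2 * f.map lam.toRingHom =
      Polynomial.C c * (∏ i, (X - Polynomial.C (σ i x))) *
        ((X - Polynomial.C (φA x)) * (X - Polynomial.C (φB x))))
    (hv : Van (fun i => σ i x) (fun i => σ i y) α β)
    (hvA : α.eval (φA x) + β.eval (φA x) * φA y = 0)
    (hvB : α.eval (φB x) + β.eval (φB x) * φB y = 0)
    (hβ : ∀ i, β.eval (σ i x) ≠ 0) (hβA : β.eval (φA x) ≠ 0) (hβB : β.eval (φB x) ≠ 0)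
    (hAz : ∀ i, φA x ≠ σ i x) (hBz : ∀ i, φB x ≠ σ i x) (hAB : φA x ≠ φB x)
    (hcl : ¬ Cl L {φA x} (φB x)) (ι : C →ₐ[ℂ] K) :
    Finsupp.single (φA.comp ι) (2 : ℤ) ∈ Good g j hj (Rat g) N := by
  let Φ : Option (Option (Fin n₁ ⊕ Fin n₂)) → (K →ₐ[ℂ] N)
    | none => φA
    | some none => φB
    | some (some i) => σ i
  have hcard : Fintype.card (Option (Option (Fin n₁ ⊕ Fin n₂))) = n₁ + n₂ + 2 := by
    simp
  have hdiv := div_good (f := g) (j := j) (hj := hj) l x y h.ind f h.eq h.notMem h.top lam α β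
    (by rw [hcard]; exact hdα) (by
      rw [hcard]
      rw [natDegree_map] at hdβ
      exact hdβ) c hc Φ (by
      rintro (_ | _ | i) e
      · exact hA e
      · exact hB e
      · exact hσ i e) (by
      rintro (_ | _ | i) (_ | _ | k) hik
      · rfl
      · exact absurd hik hAB
      · exact absurd hik (hAz k)
      · exact absurd hik.symm hAB
      · rfl
      · exact absurd hik (hBz k)
      · exact absurd hik.symm (hAz i)
      · exact absurd hik.symm (hBz i)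
      · exact congrArg (fun u => some (some u)) (hinj hik)) (by
      rw [hn, Fintype.prod_option, Fintype.prod_option]
      change _ = Polynomial.C c * ((X - Polynomial.C (φA x)) * ((X - Polynomial.C (φB x)) *
        ∏ i, (X - Polynomial.C (σ i x))))
      ring) (by
      rintro (_ | _ | i)
      · exact hβA
      · exact hβB
      · exact hβ i) (by
      rintro (_ | _ | i)
      · exact hvA
      · exact hvB
      · exact hv i) ι
  rw [Fintype.sum_option, Fintype.sum_option, Fintype.sum_sum_type] at hdiv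
  have h1 := fibre_sum (g := g) (j := j) (hj := hj) F₁ hr₁ x hx₁ hF₁ hn₁
    (fun i => σ (Sum.inl i)) hagree₁ (fun i i' hi => Sum.inl_injective (hinj hi)) ι
  have h2 := fibre_sum (g := g) (j := j) (hj := hj) F₂ hr₂ x hx₂ hF₂ hn₂
    (fun i => σ (Sum.inr i)) hagree₂ (fun i i' hi => Sum.inr_injective (hinj hi)) ι
  have h4 := AddSubgroup.sub_mem _ hdiv (AddSubgroup.add_mem _ h1 h2)
  refine h.two (g := g) (j := j) (hj := hj) h3 lam L hlamL φA φB hA hB hcl ι ?_
  have h5 : Finsupp.single (φA.comp ι) (1 : ℤ) + (Finsupp.single (φB.comp ι) 1 +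
      (∑ i, Finsupp.single ((σ (Sum.inl i)).comp ι) 1 +
        ∑ i, Finsupp.single ((σ (Sum.inr i)).comp ι) 1)) -
      (∑ i, Finsupp.single ((σ (Sum.inl i)).comp ι) 1 +
        ∑ i, Finsupp.single ((σ (Sum.inr i)).comp ι) 1) =
      Finsupp.single (φA.comp ι) 1 + Finsupp.single (φB.comp ι) 1 := by
    abel
  rw [← h5]
  exact h4

end

/-- **The assembly.** -/
theorem asm {K N : Type} [Field K] [Algebra ℂ K] [Field N] [Algebra ℂ N] [IsAlgClosed N]
    {l x y : K} {f : (IntermediateField.adjoin ℂ {l})[X]} (h : Pencil l x y f)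
    (h3 : Algebra.trdeg ℂ N ≤ 3) (lam : IntermediateField.adjoin ℂ {l} →ₐ[ℂ] N)
    (L : IntermediateField ℂ N) (hlamL : ∀ e, lam e ∈ L)
    (hLw : ∀ w, w ∉ L → AlgebraicIndependent ℂ
      ![lam ⟨l, IntermediateField.mem_adjoin_simple_self ℂ l⟩, w])
    {n₁ n₂ m : ℕ} (σ : Fin n₁ ⊕ Fin n₂ → (K →ₐ[ℂ] N))
    (hσ : ∀ i (e : IntermediateField.adjoin ℂ {l}), σ i e = lam e)
    (hS : Sys L (f.map lam.toRingHom) n₁ n₂ m (fun i => σ i x) (fun i => σ i y))
    (F₁ F₂ : IntermediateField ℂ K) (hr₁ : IsRational F₁) (hr₂ : IsRational F₂)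
    (hx₁ : F₁ ⊔ IntermediateField.adjoin ℂ {x} = ⊤) (hx₂ : F₂ ⊔ IntermediateField.adjoin ℂ {x} = ⊤)
    (hF₁ : Module.finrank F₁ K = n₁) (hF₂ : Module.finrank F₂ K = n₂)
    (hagree₁ : ∀ i j, ∀ k ∈ F₁, σ (Sum.inl i) k = σ (Sum.inl j) k)
    (hagree₂ : ∀ i j, ∀ k ∈ F₂, σ (Sum.inr i) k = σ (Sum.inr j) k) : PointsEquivalent K := by
  obtain ⟨α, β, c, zA, zB, hdα, hdβ, hc, hn, hv, hβ, hβA, hβB, hAz, hBz, hAB, hBA⟩ := hS.core
  have hzA : zA ∉ L := fun h0 => hBA (Cl.of_L h0)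
  have hzB : zB ∉ L := fun h0 => hAB (Cl.of_L h0)
  have hroot : ∀ z, (z = zA ∨ z = zB) →
      (α ^ 2 - β ^ 2 * f.map lam.toRingHom).eval z = 0 := by
    intro z hz
    rw [hn]
    rcases hz with rfl | rfl <;> simp
  have hpt : ∀ z, (z = zA ∨ z = zB) → β.eval z ≠ 0 →
      (-(α.eval z / β.eval z)) ^ 2 = (f.map lam.toRingHom).eval z := by
    intro z hz hb
    have h1 := hroot z hz
    rw [eval_sub, eval_mul, eval_pow, eval_pow] at h1
    rw [neg_sq, div_pow, div_eq_iff (pow_ne_zero 2 hb)]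
    linear_combination h1
  obtain ⟨φA, hAlam, hAx, hAy⟩ := h.emb lam (hLw zA hzA) (hpt zA (Or.inl rfl) hβA)
  obtain ⟨φB, hBlam, hBx, hBy⟩ := h.emb lam (hLw zB hzB) (hpt zB (Or.inr rfl) hβB)
  have key : ∀ {S : Scheme.{0}} {g : S ⟶ Spec (.of ℂ)} [IsProper g] {C : Type} [CommRing C]
      [Algebra ℂ C] [Algebra.FiniteType ℂ C] {j : Spec (.of C) ⟶ S}
      {hj : j ≫ g = Spec.map (CommRingCat.ofHom (algebraMap ℂ C))} (ι : C →ₐ[ℂ] K),
      Finsupp.single (φA.comp ι) (2 : ℤ) ∈ Good g j hj (Rat g) N := by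
    intro S g _ C _ _ _ j hj ι
    refine asm_two (g := g) (j := j) (hj := hj) h h3 lam L hlamL
      (by have := hS.two₁; omega) (by have := hS.two₂; omega) σ hσ F₁ F₂ hr₁ hr₂ hx₁ hx₂ hF₁ hF₂
      hagree₁ hagree₂ hS.inj hdα hdβ hc φA φB hAlam hBlam ?_ hv ?_ ?_ hβ ?_ ?_ ?_ ?_ ?_ ?_ ι
    · rw [hAx, hBx]
      exact hn
    · rw [hAx, hAy]
      field_simp
      ring
    · rw [hBx, hBy]
      field_simp
      ring
    · rw [hAx]
      exact hβA
    · rw [hBx]
      exact hβB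
    · intro i
      rw [hAx]
      exact hAz i
    · intro i
      rw [hBx]
      exact hBz i
    · rw [hAx, hBx]
      rintro rfl
      exact hAB (Cl.of_mem rfl)
    · rw [hAx, hBx]
      exact hAB
  intro S _ g _ hg u v
  refine one_of_pow_two g hg h.isDouble 1 ?_ u v
  intro u v
  obtain ⟨U, hU, hne, hi⟩ := exists_chart g hg
  letI := chartAlg g hU
  haveI := chart_finiteType g hU
  obtain ⟨i, hi, hfrac⟩ := hi
  have h4 := global_of_good' g hU ((2 : ℤ) ^ 1) (Rat g) le_rfl (φA.comp i)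
    (φA.toRingHom.injective.comp hi) (by
      rw [pow_one]
      exact key (g := g) (j := hU.fromSpec) (hj := chart_hj g hU) i) u v
  exact h4

end Vale.Agent.P297.Gen
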