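import Vale.Agent.P297.Gen.H516.Core

/-!
Automorphisms that permute the points of a fibre.
-/

set_option linter.unusedSectionVars false
set_option linter.style.haveILetI false

open IntermediateField Polynomial

namespace Vale.Agent.P297.Gen

section

variable {N : Type} [Field N] [Algebra ℂ N]

/-- The points of a fibre: `z k` runs through the roots of `P - w Q`, and `y k = v B(z) / A(z)`. -/
structure Blk (L : IntermediateField ℂ N) {n : ℕ} (z y : Fin n → N) (w v : N)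
    (P Q A B : N[X]) : Prop where
  cP : ∀ k, P.coeff k ∈ L
  cQ : ∀ k, Q.coeff k ∈ L
  cA : ∀ k, A.coeff k ∈ L
  cB : ∀ k, B.coeff k ∈ L
  inj : Function.Injective z
  root : ∀ k, P.eval (z k) = w * Q.eval (z k)
  qne : ∀ k, Q.eval (z k) ≠ 0
  all : ∀ x, P.eval x = w * Q.eval x → ∃ k, x = z k
  ane : ∀ k, A.eval (z k) ≠ 0
  bne : ∀ k, B.eval (z k) ≠ 0
  val : ∀ k, y k * A.eval (z k) = v * B.eval (z k)

variable {L : IntermediateField ℂ N}

theorem eval_aut_of_coeff (g : N ≃ₐ[ℂ] N) (hg : ∀ x ∈ L, g x = x) {p : N[X]}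
    (hp : ∀ k, p.coeff k ∈ L) (x : N) : p.eval (g x) = g (p.eval x) := by
  have h : p.map (g : N →+* N) = p := by
    ext k
    rw [coeff_map]
    exact hg _ (hp k)
  rw [← eval_map_aut g p x, h]

theorem Blk.perm {n : ℕ} {z y : Fin n → N} {w v : N} {P Q A B : N[X]}
    (b : Blk L z y w v P Q A B) (g : N ≃ₐ[ℂ] N) (hg : ∀ x ∈ L, g x = x) {i j : Fin n}
    (hz : g (z i) = z j) (hy : g (y i) = y j) :
    ∃ π : Equiv.Perm (Fin n), ∀ k, g (z k) = z (π k) ∧ g (y k) = y (π k) := by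
  have hw : g w = w := by
    have h1 := congrArg g (b.root i)
    rw [map_mul, ← eval_aut_of_coeff g hg b.cP, ← eval_aut_of_coeff g hg b.cQ, hz, b.root j] at h1
    exact (mul_right_cancel₀ (b.qne j) h1).symm
  have hv : g v = v := by
    have h1 := congrArg g (b.val i)
    rw [map_mul, map_mul, ← eval_aut_of_coeff g hg b.cA, ← eval_aut_of_coeff g hg b.cB, hz, hy,
      b.val j] at h1
    exact (mul_right_cancel₀ (b.bne j) h1).symm
  have hex : ∀ k, ∃ k', g (z k) = z k' := by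
    intro k
    apply b.all
    rw [eval_aut_of_coeff g hg b.cP, eval_aut_of_coeff g hg b.cQ, b.root k, map_mul, hw]
  choose π hπ using hex
  have hinj : Function.Injective π := by
    intro k k' h
    apply b.inj
    apply g.injective
    rw [hπ, hπ, h]
  refine ⟨Equiv.ofBijective π (Finite.injective_iff_bijective.1 hinj), fun k => ⟨hπ k, ?_⟩⟩
  change g (y k) = y (π k)
  have h1 := congrArg g (b.val k)
  rw [map_mul, map_mul, ← eval_aut_of_coeff g hg b.cA, ← eval_aut_of_coeff g hg b.cB, hπ, hv,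
    ← b.val (π k)] at h1
  exact mul_right_cancel₀ (b.ane (π k)) h1

/-- a polynomial with coefficients in a subfield -/
theorem exists_coeff (M : IntermediateField ℂ N) {f : N[X]} (hf : ∀ k, f.coeff k ∈ M) :
    ∃ F : M[X], F.map (algebraMap M N) = f := by
  have h : f ∈ Polynomial.lifts (algebraMap M N) := by
    rw [Polynomial.lifts_iff_coeff_lifts]
    intro k
    exact ⟨⟨_, hf k⟩, rfl⟩
  exact (Polynomial.mem_lifts _).1 h

/-- **Transitivity on a fibre.** `M` contains the other fibre. -/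
theorem Blk.aut [IsAlgClosed N] {n : ℕ} {z y : Fin n → N} {w v : N} {P Q A B : N[X]}
    (b : Blk L z y w v P Q A B) (M : IntermediateField ℂ N) (hM : ∀ x : N, IsAlgebraic M x → x ∈ M)
    (hLM : L ≤ M) {f : N[X]} (hf : ∀ k, f.coeff k ∈ L) (hs : f.Separable) (hd : 0 < f.natDegree)
    (hy : ∀ k, y k ^ 2 = f.eval (z k)) (hzM : ∀ k, z k ∉ M)
    (halg : ∀ k (u : N), IsAlgebraic (IntermediateField.adjoin M {z k}) u) (i j : Fin n) :
    ∃ g : N ≃ₐ[ℂ] N, (∀ x ∈ M, g x = x) ∧ g (z i) = z j ∧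
      ∃ π : Equiv.Perm (Fin n), ∀ k, g (z k) = z (π k) ∧ g (y k) = y (π k) := by
  obtain ⟨F, hF⟩ := exists_coeff M (f := f) (fun k => hLM (hf k))
  have hFs : F.Separable := by
    rw [← hF, separable_map] at hs
    exact hs
  have hFd : 0 < F.natDegree := by
    rw [← hF, natDegree_map] at hd
    exact hd
  have hFe : ∀ k, y k ^ 2 = Polynomial.aeval (z k) F := by
    intro k
    rw [hy k, ← hF, eval_map]
    rfl
  obtain ⟨g, hgM, hgz, hgy⟩ := ext_emb M hM F hFs hFd (hzM i) (hzM j) (hFe i) (hFe j) (halg i)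
    (halg j)
  exact ⟨g, hgM, hgz, b.perm g (fun x hx => hgM x (hLM hx)) hgz hgy⟩

/-- The field `aut` of `Sys`. -/
theorem aut_field {n₁ n₂ : ℕ} {z₁ y₁ : Fin n₁ → N} {z₂ y₂ : Fin n₂ → N}
    {M₁ M₂ : IntermediateField ℂ N} (hL₁ : L ≤ M₁) (hL₂ : L ≤ M₂)
    (h₁ : ∀ k, z₁ k ∈ M₁ ∧ y₁ k ∈ M₁) (h₂ : ∀ k, z₂ k ∈ M₂ ∧ y₂ k ∈ M₂)
    (a₁ : ∀ i j : Fin n₁, ∃ g : N ≃ₐ[ℂ] N, (∀ x ∈ M₂, g x = x) ∧ g (z₁ i) = z₁ j ∧
      ∃ π : Equiv.Perm (Fin n₁), ∀ k, g (z₁ k) = z₁ (π k) ∧ g (y₁ k) = y₁ (π k))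
    (a₂ : ∀ i j : Fin n₂, ∃ g : N ≃ₐ[ℂ] N, (∀ x ∈ M₁, g x = x) ∧ g (z₂ i) = z₂ j ∧
      ∃ π : Equiv.Perm (Fin n₂), ∀ k, g (z₂ k) = z₂ (π k) ∧ g (y₂ k) = y₂ (π k))
    (i j : Fin n₁ ⊕ Fin n₂) (hij : i.isLeft = j.isLeft) :
    ∃ g : N ≃ₐ[ℂ] N, (∀ x ∈ L, g x = x) ∧ g (Sum.elim z₁ z₂ i) = Sum.elim z₁ z₂ j ∧
      ∃ π : Equiv.Perm (Fin n₁ ⊕ Fin n₂), ∀ k, g (Sum.elim z₁ z₂ k) = Sum.elim z₁ z₂ (π k) ∧
        g (Sum.elim y₁ y₂ k) = Sum.elim y₁ y₂ (π k) := by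
  rcases i with i | i <;> rcases j with j | j
  · obtain ⟨g, hg, hz, π, hπ⟩ := a₁ i j
    refine ⟨g, fun x hx => hg x (hL₂ hx), hz, Equiv.Perm.sumCongr π 1, ?_⟩
    rintro (k | k)
    · exact hπ k
    · exact ⟨hg _ (h₂ k).1, hg _ (h₂ k).2⟩
  · simp at hij
  · simp at hij
  · obtain ⟨g, hg, hz, π, hπ⟩ := a₂ i j
    refine ⟨g, fun x hx => hg x (hL₁ hx), hz, Equiv.Perm.sumCongr 1 π, ?_⟩
    rintro (k | k)
    · exact ⟨hg _ (h₁ k).1, hg _ (h₁ k).2⟩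
    · exact hπ k

end

end Vale.Agent.P297.Gen
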