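import Vale.Agent.P297.Gen.H516.Ext

/-!
The linear system through the points of two fibres.
-/

set_option linter.unusedSectionVars false
set_option linter.style.haveILetI false

open IntermediateField Polynomial

namespace Vale.Agent.P297.Gen

section

variable {N : Type} [Field N] [Algebra ℂ N]

/-- `x` lies in every relatively closed subfield that contains `L` and `S`. -/
def Cl (L : IntermediateField ℂ N) (S : Set N) (x : N) : Prop :=
  ∀ M : IntermediateField ℂ N, (∀ u : N, IsAlgebraic M u → u ∈ M) → L ≤ M → S ⊆ M → x ∈ M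

theorem Cl.mono {L : IntermediateField ℂ N} {S T : Set N} {x : N} (h : Cl L S x) (hST : S ⊆ T) :
    Cl L T x := fun M hM hL hT => h M hM hL (hST.trans hT)

theorem Cl.trans {L : IntermediateField ℂ N} {S T : Set N} {x : N} (h : Cl L S x)
    (hST : ∀ s ∈ S, Cl L T s) : Cl L T x := fun M hM hL hT =>
  h M hM hL (fun s hs => hST s hs M hM hL hT)

theorem Cl.of_mem {L : IntermediateField ℂ N} {S : Set N} {x : N} (h : x ∈ S) : Cl L S x :=
  fun _ _ _ hT => hT h

theorem Cl.of_L {L : IntermediateField ℂ N} {S : Set N} {x : N} (h : x ∈ L) : Cl L S x :=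
  fun _ _ hL _ => hL h

/-- a pair of polynomials that vanishes at the points -/
def Van {ι : Type} (z y : ι → N) (α β : N[X]) : Prop :=
  ∀ i, α.eval (z i) + β.eval (z i) * y i = 0

theorem norm_root {f α β : N[X]} {z y : N} (hy : y ^ 2 = f.eval z)
    (h : α.eval z + β.eval z * y = 0) : (α ^ 2 - β ^ 2 * f).eval z = 0 := by
  rw [eval_sub, eval_mul, eval_pow, eval_pow, ← hy]
  linear_combination (α.eval z - β.eval z * y) * h

theorem norm_ne_zero [IsAlgClosed N] {f α β : N[X]} (hf : f.Separable) (hd : 0 < f.natDegree)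
    (h : ¬ (α = 0 ∧ β = 0)) : α ^ 2 - β ^ 2 * f ≠ 0 := by
  intro h0
  obtain ⟨r, hr⟩ := IsAlgClosed.exists_root f (by
    intro h1
    rw [natDegree_eq_of_degree_eq_some h1] at hd
    exact lt_irrefl _ hd)
  by_cases hβ : β = 0
  · rw [hβ, zero_pow two_ne_zero, zero_mul, sub_zero] at h0
    exact h ⟨pow_eq_zero_iff two_ne_zero |>.1 h0, hβ⟩
  · exact not_sq hf hr (p := α) (q := β) hβ (by linear_combination h0)

theorem prod_dvd {ι : Type} [Fintype ι] {z : ι → N} (hz : Function.Injective z) {p : N[X]}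
    (h : ∀ i, p.eval (z i) = 0) : (∏ i, (X - C (z i))) ∣ p := by
  apply Finset.prod_dvd_of_coprime
  · intro i _ j _ hij
    exact Polynomial.pairwise_coprime_X_sub_C hz hij
  · intro i _
    exact dvd_iff_isRoot.2 (h i)

/-- The data. -/
structure Sys (L : IntermediateField ℂ N) (f : N[X]) (n₁ n₂ m : ℕ)
    (z y : Fin n₁ ⊕ Fin n₂ → N) : Prop where
  coeff : ∀ n, f.coeff n ∈ L
  sep : f.Separable
  deg5 : 5 ≤ f.natDegree
  deg6 : f.natDegree ≤ 6
  sum : n₁ + n₂ = 2 * m
  two₁ : 2 ≤ n₁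
  two₂ : 2 ≤ n₂
  inj : Function.Injective z
  pt : ∀ i, y i ^ 2 = f.eval (z i)
  notMem : ∀ i, z i ∉ L
  dom : ∀ α β Q : N[X], Q ≠ 0 → Van z y α β →
    α ^ 2 - β ^ 2 * f = (∏ i, (X - C (z i))) * Q → ∀ i, Cl L {r | Q.IsRoot r} (z i)
  big : ∀ u : N, ∃ i, ¬ Cl L {u} (z i)
  same : ∀ i j : Fin n₁ ⊕ Fin n₂, i.isLeft = j.isLeft → Cl L {z i} (z j)
  aut : ∀ i j : Fin n₁ ⊕ Fin n₂, i.isLeft = j.isLeft → i ≠ j → ∃ g : N ≃ₐ[ℂ] N,
    (∀ x ∈ L, g x = x) ∧ g (z i) = z j ∧ ∃ π : Equiv.Perm (Fin n₁ ⊕ Fin n₂),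
      ∀ k, g (z k) = z (π k) ∧ g (y k) = y (π k)

variable {L : IntermediateField ℂ N} {f : N[X]} {n₁ n₂ m : ℕ} {z y : Fin n₁ ⊕ Fin n₂ → N}

theorem Sys.two_le (S : Sys L f n₁ n₂ m z y) : 2 ≤ m := by
  have := S.sum
  have := S.two₁
  have := S.two₂
  omega

theorem Sys.deg_left (_ : Sys L f n₁ n₂ m z y) {α : N[X]} (hα : α ∈ degreeLT N (m + 2)) :
    α.natDegree ≤ m + 1 := by
  rw [mem_degreeLT] at hα
  by_cases hα0 : α = 0
  · rw [hα0, natDegree_zero]
    omega
  · rw [degree_eq_natDegree hα0, Nat.cast_lt] at hα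
    omega

theorem Sys.deg_right (_ : Sys L f n₁ n₂ m z y) {β : N[X]} (hβ : β ∈ degreeLT N (m - 1)) :
    β.natDegree ≤ m - 2 := by
  rw [mem_degreeLT] at hβ
  by_cases hβ0 : β = 0
  · rw [hβ0, natDegree_zero]
    omega
  · rw [degree_eq_natDegree hβ0, Nat.cast_lt] at hβ
    omega

theorem Sys.normal [IsAlgClosed N] (S : Sys L f n₁ n₂ m z y) {α β : N[X]}
    (hα : α ∈ degreeLT N (m + 2)) (hβ : β ∈ degreeLT N (m - 1)) (h0 : ¬ (α = 0 ∧ β = 0))
    (hv : Van z y α β) :
    ∃ c zA zB : N, c ≠ 0 ∧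
      α ^ 2 - β ^ 2 * f = C c * (∏ i, (X - C (z i))) * ((X - C zA) * (X - C zB)) ∧
      ¬ Cl L {zA} zB ∧ ¬ Cl L {zB} zA := by
  have hN := norm_ne_zero S.sep (by have := S.deg5; omega) h0
  obtain ⟨Q, hQ⟩ := prod_dvd S.inj (p := α ^ 2 - β ^ 2 * f) (fun i => norm_root (S.pt i) (hv i))
  have hQ0 : Q ≠ 0 := by
    rintro rfl
    rw [mul_zero] at hQ
    exact hN hQ
  have hm : 2 ≤ m := by have := S.sum; have := S.two₁; have := S.two₂; omega
  have hdα : α.natDegree ≤ m + 1 := by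
    rw [mem_degreeLT] at hα
    by_cases hα0 : α = 0
    · rw [hα0, natDegree_zero]
      omega
    · rw [degree_eq_natDegree hα0, Nat.cast_lt] at hα
      omega
  have hdβ : β.natDegree ≤ m - 2 := by
    rw [mem_degreeLT] at hβ
    by_cases hβ0 : β = 0
    · rw [hβ0, natDegree_zero]
      omega
    · rw [degree_eq_natDegree hβ0, Nat.cast_lt] at hβ
      omega
  have hdN : (α ^ 2 - β ^ 2 * f).natDegree ≤ 2 * m + 2 := by
    refine (natDegree_sub_le _ _).trans (max_le ?_ ?_)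
    · refine natDegree_pow_le.trans ?_
      omega
    · refine natDegree_mul_le.trans ?_
      have h1 : (β ^ 2).natDegree ≤ 2 * β.natDegree := natDegree_pow_le
      have := S.deg6
      omega
  have hP : (∏ i, (X - C (z i))).Monic := monic_prod_of_monic _ _ fun i _ => monic_X_sub_C _
  have hdP : (∏ i, (X - C (z i))).natDegree = 2 * m := by
    rw [natDegree_prod_of_monic _ _ fun i _ => monic_X_sub_C _]
    simp only [natDegree_X_sub_C, Finset.sum_const, Finset.card_univ, Fintype.card_sum,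
      Fintype.card_fin, smul_eq_mul, mul_one]
    exact S.sum
  have hdQ : Q.natDegree ≤ 2 := by
    rw [hQ, hP.natDegree_mul' hQ0, hdP] at hdN
    omega
  have hdom := S.dom α β Q hQ0 hv hQ
  have hdQ2 : Q.natDegree = 2 := by
    by_contra hne
    have h1 : Q.roots.card ≤ 1 := (card_roots' Q).trans (by omega)
    obtain ⟨u, hu⟩ : ∃ u, ∀ r ∈ Q.roots, r = u := by
      rcases Nat.le_one_iff_eq_zero_or_eq_one.1 h1 with h2 | h2
      · rw [Multiset.card_eq_zero] at h2
        exact ⟨0, by rw [h2]; simp⟩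
      · obtain ⟨u, hu⟩ := Multiset.card_eq_one.1 h2
        exact ⟨u, by rw [hu]; simp⟩
    obtain ⟨i, hi⟩ := S.big u
    apply hi
    refine (hdom i).mono ?_
    intro r hr
    exact hu r ((mem_roots hQ0).2 hr)
  obtain ⟨zA, hA⟩ := IsAlgClosed.exists_root Q (by
    intro h1
    have h3 := natDegree_eq_zero_iff_degree_le_zero.2 h1.le
    omega)
  obtain ⟨Q₁, hQ₁⟩ := dvd_iff_isRoot.2 hA
  have hQ₁0 : Q₁ ≠ 0 := by
    rintro rfl
    rw [mul_zero] at hQ₁
    exact hQ0 hQ₁
  have hdQ₁ : Q₁.natDegree = 1 := by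
    rw [hQ₁, (monic_X_sub_C zA).natDegree_mul' hQ₁0, natDegree_X_sub_C] at hdQ2
    omega
  obtain ⟨zB, hB⟩ := IsAlgClosed.exists_root Q₁ (by
    intro h1
    have h3 := natDegree_eq_zero_iff_degree_le_zero.2 h1.le
    omega)
  obtain ⟨Q₂, hQ₂⟩ := dvd_iff_isRoot.2 hB
  have hQ₂0 : Q₂ ≠ 0 := by
    rintro rfl
    rw [mul_zero] at hQ₂
    exact hQ₁0 hQ₂
  have hdQ₂ : Q₂.natDegree = 0 := by
    rw [hQ₂, (monic_X_sub_C zB).natDegree_mul' hQ₂0, natDegree_X_sub_C] at hdQ₁
    omega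
  obtain ⟨c, hc⟩ := natDegree_eq_zero.1 hdQ₂
  have hroots : ∀ r, Q.IsRoot r → r = zA ∨ r = zB := by
    intro r hr
    have h1 : (r - zA) * ((r - zB) * c) = 0 := by
      have h2 : Q.eval r = 0 := hr
      rw [hQ₁, hQ₂, ← hc] at h2
      simpa using h2
    have hc0 : c ≠ 0 := by
      rintro rfl
      rw [C_0] at hc
      exact hQ₂0 hc.symm
    rcases mul_eq_zero.1 h1 with h2 | h2
    · exact Or.inl (sub_eq_zero.1 h2)
    · exact Or.inr (sub_eq_zero.1 ((mul_eq_zero.1 h2).resolve_right hc0))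
  refine ⟨c, zA, zB, ?_, ?_, ?_, ?_⟩
  · rintro rfl
    rw [C_0] at hc
    exact hQ₂0 hc.symm
  · rw [hQ, hQ₁, hQ₂, ← hc]
    ring
  · intro hcl
    obtain ⟨i, hi⟩ := S.big zA
    apply hi
    apply (hdom i).trans
    intro r hr
    rcases hroots r hr with rfl | rfl
    · exact Cl.of_mem rfl
    · exact hcl
  · intro hcl
    obtain ⟨i, hi⟩ := S.big zB
    apply hi
    apply (hdom i).trans
    intro r hr
    rcases hroots r hr with rfl | rfl
    · exact hcl
    · exact Cl.of_mem rfl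

/-- no solution vanishes at a point over `L` -/
theorem Sys.noL [IsAlgClosed N] (S : Sys L f n₁ n₂ m z y) {α β : N[X]}
    (hα : α ∈ degreeLT N (m + 2)) (hβ : β ∈ degreeLT N (m - 1)) (hv : Van z y α β)
    {r s : N} (hr : r ∈ L) (hs : s ^ 2 = f.eval r) (h : α.eval r + β.eval r * s = 0) :
    α = 0 ∧ β = 0 := by
  by_contra h0
  obtain ⟨c, zA, zB, hc, hN, h1, h2⟩ := S.normal hα hβ h0 hv
  have h3 := norm_root hs h
  rw [hN, eval_mul, eval_mul, eval_C, eval_prod, eval_mul] at h3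
  simp only [eval_sub, eval_X, eval_C] at h3
  rcases mul_eq_zero.1 h3 with h4 | h4
  · rcases mul_eq_zero.1 h4 with h5 | h5
    · exact hc h5
    · obtain ⟨i, _, hi⟩ := Finset.prod_eq_zero_iff.1 h5
      apply S.notMem i
      rw [← sub_eq_zero.1 hi]
      exact hr
  · rcases mul_eq_zero.1 h4 with h5 | h5
    · apply h2
      rw [← sub_eq_zero.1 h5]
      exact Cl.of_L hr
    · apply h1
      rw [← sub_eq_zero.1 h5]
      exact Cl.of_L hr

/-- uniqueness -/
theorem Sys.unique [IsAlgClosed N] (S : Sys L f n₁ n₂ m z y) {α β α' β' : N[X]}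
    (hα : α ∈ degreeLT N (m + 2)) (hβ : β ∈ degreeLT N (m - 1)) (hv : Van z y α β)
    (h0 : ¬ (α = 0 ∧ β = 0))
    (hα' : α' ∈ degreeLT N (m + 2)) (hβ' : β' ∈ degreeLT N (m - 1)) (hv' : Van z y α' β') :
    ∃ t : N, α' = C t * α ∧ β' = C t * β := by
  obtain ⟨s, hs⟩ := IsAlgClosed.exists_pow_nat_eq (f.eval 0) (n := 2) two_pos
  set a := α.eval 0 + β.eval 0 * s with ha
  set b := α'.eval 0 + β'.eval 0 * s with hb
  have ha0 : a ≠ 0 := fun h => h0 (S.noL hα hβ hv (zero_mem L) hs h)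
  have h1 := S.noL (α := a • α' - b • α) (β := a • β' - b • β)
    (Submodule.sub_mem _ (Submodule.smul_mem _ _ hα') (Submodule.smul_mem _ _ hα))
    (Submodule.sub_mem _ (Submodule.smul_mem _ _ hβ') (Submodule.smul_mem _ _ hβ))
    (fun i => by
      simp only [eval_sub, eval_smul, smul_eq_mul]
      linear_combination a * hv' i - b * hv i) (zero_mem L) hs (by
      simp only [eval_sub, eval_smul, smul_eq_mul]
      linear_combination (-a) * hb + b * ha)
  refine ⟨b / a, ?_, ?_⟩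
  · have h2 := sub_eq_zero.1 h1.1
    rw [smul_eq_C_mul, smul_eq_C_mul] at h2
    have h3 : C a * C (a⁻¹) = (1 : N[X]) := by rw [← C_mul, mul_inv_cancel₀ ha0, C_1]
    rw [div_eq_mul_inv, C_mul]
    linear_combination (C a⁻¹) * h2 - α' * h3
  · have h2 := sub_eq_zero.1 h1.2
    rw [smul_eq_C_mul, smul_eq_C_mul] at h2
    have h3 : C a * C (a⁻¹) = (1 : N[X]) := by rw [← C_mul, mul_inv_cancel₀ ha0, C_1]
    rw [div_eq_mul_inv, C_mul]
    linear_combination (C a⁻¹) * h2 - β' * h3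

/-- existence -/
theorem Sys.exists_sol (S : Sys L f n₁ n₂ m z y) :
    ∃ α β : N[X], α ∈ degreeLT N (m + 2) ∧ β ∈ degreeLT N (m - 1) ∧ ¬ (α = 0 ∧ β = 0) ∧
      Van z y α β := by
  let T : (degreeLT N (m + 2) × degreeLT N (m - 1)) →ₗ[N] (Fin n₁ ⊕ Fin n₂ → N) :=
    { toFun := fun p i => (p.1 : N[X]).eval (z i) + (p.2 : N[X]).eval (z i) * y i
      map_add' := fun p q => by
        funext i
        simp only [Prod.fst_add, Prod.snd_add, Submodule.coe_add, eval_add, Pi.add_apply]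
        ring
      map_smul' := fun c p => by
        funext i
        simp only [Prod.smul_fst, Prod.smul_snd, Submodule.coe_smul, eval_smul, Pi.smul_apply,
          smul_eq_mul, RingHom.id_apply]
        ring }
  have hf1 : Module.finrank N (degreeLT N (m + 2)) = m + 2 := by
    rw [(degreeLTEquiv N (m + 2)).finrank_eq, Module.finrank_fin_fun]
  have hf2 : Module.finrank N (degreeLT N (m - 1)) = m - 1 := by
    rw [(degreeLTEquiv N (m - 1)).finrank_eq, Module.finrank_fin_fun]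
  haveI : FiniteDimensional N (degreeLT N (m + 2)) :=
    Module.Finite.equiv (degreeLTEquiv N (m + 2)).symm
  haveI : FiniteDimensional N (degreeLT N (m - 1)) :=
    Module.Finite.equiv (degreeLTEquiv N (m - 1)).symm
  have hm : 2 ≤ m := by have := S.sum; have := S.two₁; have := S.two₂; omega
  have hker : LinearMap.ker T ≠ ⊥ := by
    apply LinearMap.ker_ne_bot_of_finrank_lt
    rw [Module.finrank_prod, hf1, hf2, Module.finrank_fintype_fun_eq_card, Fintype.card_sum,
      Fintype.card_fin, Fintype.card_fin, S.sum]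
    omega
  obtain ⟨p, hp, hp0⟩ := Submodule.exists_mem_ne_zero_of_ne_bot hker
  refine ⟨p.1, p.2, p.1.2, p.2.2, ?_, fun i => congrFun (LinearMap.mem_ker.1 hp) i⟩
  rintro ⟨h1, h2⟩
  exact hp0 (Prod.ext (Subtype.ext h1) (Subtype.ext h2))

theorem eval_map_aut (g : N ≃ₐ[ℂ] N) (p : N[X]) (x : N) :
    (p.map (g : N →+* N)).eval (g x) = g (p.eval x) := by
  rw [eval_map]
  exact eval₂_hom (g : N →+* N) x

/-- **Core.** -/
theorem Sys.core [IsAlgClosed N] (S : Sys L f n₁ n₂ m z y) :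
    ∃ (α β : N[X]) (c zA zB : N), 2 * α.natDegree ≤ n₁ + n₂ + 2 ∧
      2 * β.natDegree + f.natDegree ≤ n₁ + n₂ + 2 ∧ c ≠ 0 ∧
      α ^ 2 - β ^ 2 * f = C c * (∏ i, (X - C (z i))) * ((X - C zA) * (X - C zB)) ∧
      Van z y α β ∧ (∀ i, β.eval (z i) ≠ 0) ∧ β.eval zA ≠ 0 ∧ β.eval zB ≠ 0 ∧
      (∀ i, zA ≠ z i) ∧ (∀ i, zB ≠ z i) ∧ ¬ Cl L {zA} zB ∧ ¬ Cl L {zB} zA := by
  obtain ⟨α, β, hα, hβ, h0, hv⟩ := S.exists_sol
  obtain ⟨c, zA, zB, hc, hN, h1, h2⟩ := S.normal hα hβ h0 hv
  have hAB : zA ≠ zB := by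
    rintro rfl
    exact h1 (Cl.of_mem rfl)
  -- the conjugates
  have key : ∀ g : N ≃ₐ[ℂ] N, (∀ x ∈ L, g x = x) →
      ∀ π : Equiv.Perm (Fin n₁ ⊕ Fin n₂), (∀ k, g (z k) = z (π k) ∧ g (y k) = y (π k)) →
      ∀ r, (r = zA ∨ r = zB) → g r = zA ∨ g r = zB := by
    intro g hgL π hπ r hr
    have hfg : f.map (g : N →+* N) = f := by
      ext n
      rw [coeff_map]
      exact hgL _ (S.coeff n)
    obtain ⟨t, ht1, ht2⟩ := S.unique hα hβ hv h0 (α' := α.map (g : N →+* N))
      (β' := β.map (g : N →+* N)) (by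
        rw [mem_degreeLT] at hα ⊢
        exact degree_map_le.trans_lt hα) (by
        rw [mem_degreeLT] at hβ ⊢
        exact degree_map_le.trans_lt hβ) (fun i => by
        obtain ⟨e1, e2⟩ := hπ (π.symm i)
        rw [Equiv.apply_symm_apply] at e1 e2
        rw [← e1, ← e2, eval_map_aut, eval_map_aut, ← map_mul, ← map_add, hv, map_zero])
    have hmap := congrArg (Polynomial.map (g : N →+* N)) hN
    rw [Polynomial.map_sub, Polynomial.map_mul, Polynomial.map_pow, Polynomial.map_pow, hfg,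
      ht1, ht2, Polynomial.map_mul, Polynomial.map_mul, Polynomial.map_mul, Polynomial.map_prod,
      map_C] at hmap
    simp only [Polynomial.map_sub, Polynomial.map_X, map_C] at hmap
    have hprod : ∏ i, (X - C ((g : N →+* N) (z i))) = ∏ i, (X - C (z i)) := by
      have e : ∀ i, (X - C ((g : N →+* N) (z i)) : N[X]) = X - C (z (π i)) := by
        intro i
        have := (hπ i).1
        congr 2
      rw [Finset.prod_congr rfl fun i _ => e i]
      exact Equiv.prod_comp π (fun i => (X - C (z i) : N[X]))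
    rw [hprod] at hmap
    have h3 : (C t * α) ^ 2 - (C t * β) ^ 2 * f = C (t ^ 2) * (α ^ 2 - β ^ 2 * f) := by
      rw [C_pow]
      ring
    rw [h3, hN] at hmap
    have hP0 : (∏ i, (X - C (z i))) ≠ 0 :=
      (monic_prod_of_monic _ _ fun i _ => monic_X_sub_C _).ne_zero
    have h4 : C (t ^ 2 * c) * ((X - C zA) * (X - C zB)) =
        C ((g : N →+* N) c) * ((X - C ((g : N →+* N) zA)) * (X - C ((g : N →+* N) zB))) := by
      apply mul_left_cancel₀ hP0
      rw [C_mul]
      linear_combination hmap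
    have h5 := congrArg (Polynomial.eval (g r)) h4
    simp only [eval_mul, eval_C, eval_sub, eval_X] at h5
    have h6 : (g r - g zA) * (g r - g zB) = 0 := by
      rcases hr with rfl | rfl
      · rw [sub_self, zero_mul]
      · rw [sub_self, mul_zero]
    have hgc : (g c) ≠ 0 := by
      intro h7
      exact hc (g.injective (by rw [h7, map_zero]))
    have h7 : t ^ 2 * c * ((g r - zA) * (g r - zB)) = 0 := by
      rw [h5]
      change g c * ((g r - g zA) * (g r - g zB)) = 0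
      rw [h6, mul_zero]
    have ht0 : t ^ 2 * c ≠ 0 := by
      intro h8
      rw [h8, C_0, zero_mul] at h4
      exact mul_ne_zero (C_ne_zero.2 hgc) (mul_ne_zero (X_sub_C_ne_zero _) (X_sub_C_ne_zero _))
        h4.symm
    rcases mul_eq_zero.1 ((mul_eq_zero.1 h7).resolve_left ht0) with h8 | h8
    · exact Or.inl (sub_eq_zero.1 h8)
    · exact Or.inr (sub_eq_zero.1 h8)
  have hother : ∀ i : Fin n₁ ⊕ Fin n₂, ∃ j, i.isLeft = j.isLeft ∧ i ≠ j := by
    intro i
    rcases i with i | i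
    · haveI : Nontrivial (Fin n₁) := Fin.nontrivial_iff_two_le.2 S.two₁
      obtain ⟨j, hj⟩ := exists_ne i
      exact ⟨Sum.inl j, rfl, fun h => hj (Sum.inl_injective h).symm⟩
    · haveI : Nontrivial (Fin n₂) := Fin.nontrivial_iff_two_le.2 S.two₂
      obtain ⟨j, hj⟩ := exists_ne i
      exact ⟨Sum.inr j, rfl, fun h => hj (Sum.inr_injective h).symm⟩
  have hA : ∀ i, zA ≠ z i := by
    intro i hi
    obtain ⟨j, hij, hne⟩ := hother i
    obtain ⟨g, hgL, hgi, π, hπ⟩ := S.aut i j hij hne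
    rcases key g hgL π hπ zA (Or.inl rfl) with h3 | h3
    · rw [hi, hgi] at h3
      exact hne (S.inj h3.symm)
    · rw [hi, hgi] at h3
      apply h1
      rw [hi, ← h3]
      exact S.same i j hij
  have hB : ∀ i, zB ≠ z i := by
    intro i hi
    obtain ⟨j, hij, hne⟩ := hother i
    obtain ⟨g, hgL, hgi, π, hπ⟩ := S.aut i j hij hne
    rcases key g hgL π hπ zB (Or.inr rfl) with h3 | h3
    · rw [hi, hgi] at h3
      apply h2
      rw [hi, ← h3]
      exact S.same i j hij
    · rw [hi, hgi] at h3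
      exact hne (S.inj h3.symm)
  -- simple roots
  have hdouble : ∀ r, α.eval r = 0 → β.eval r = 0 → (X - C r) ^ 2 ∣ α ^ 2 - β ^ 2 * f := by
    intro r ha hb
    have ha' := dvd_iff_isRoot.2 (show α.IsRoot r from ha)
    have hb' := dvd_iff_isRoot.2 (show β.IsRoot r from hb)
    exact dvd_sub (pow_dvd_pow_of_dvd ha' 2) ((pow_dvd_pow_of_dvd hb' 2).mul_right f)
  have hnotdvd : ∀ r, ¬ (X - C r) ^ 2 ∣
      C c * (∏ i, (X - C (z i))) * ((X - C zA) * (X - C zB)) := by
    intro r hr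
    let w : Option (Option (Fin n₁ ⊕ Fin n₂)) → N := fun o =>
      o.elim zA (fun o' => o'.elim zB z)
    have hw : Function.Injective w := by
      intro a b hab
      rcases a with _ | _ | a <;> rcases b with _ | _ | b
      · rfl
      · exact absurd hab hAB
      · exact absurd hab (hA b)
      · exact absurd hab.symm hAB
      · rfl
      · exact absurd hab (hB b)
      · exact absurd hab.symm (hA a)
      · exact absurd hab.symm (hB a)
      · have h3 : z a = z b := hab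
        rw [S.inj h3]
    have hprod : ∏ o, (X - C (w o)) = (X - C zA) * ((X - C zB) * ∏ i, (X - C (z i))) := by
      rw [Fintype.prod_option, Fintype.prod_option]
      rfl
    have hsep : (∏ o, (X - C (w o))).Separable :=
      separable_prod_X_sub_C_iff.2 hw
    have h3 : (X - C r) ^ 2 ∣ ∏ o, (X - C (w o)) := by
      have h4 : C c * (∏ i, (X - C (z i))) * ((X - C zA) * (X - C zB)) =
          C c * ∏ o, (X - C (w o)) := by
        rw [hprod]
        ring
      rw [h4] at hr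
      exact (IsUnit.dvd_mul_left (isUnit_C.2 (isUnit_iff_ne_zero.2 hc))).1 hr
    have h4 := hsep.squarefree (X - C r) (by rwa [← pow_two])
    exact not_isUnit_X_sub_C r h4
  have hβne : ∀ r s, s ^ 2 = f.eval r → α.eval r + β.eval r * s = 0 → β.eval r ≠ 0 := by
    intro r s _ h4 h5
    rw [h5, zero_mul, add_zero] at h4
    apply hnotdvd r
    rw [← hN]
    exact hdouble r h4 h5
  have hβroot : ∀ r, (α ^ 2 - β ^ 2 * f).eval r = 0 → β.eval r ≠ 0 := by
    intro r h4 h5
    rw [eval_sub, eval_mul, eval_pow, eval_pow, h5, zero_pow two_ne_zero, zero_mul, sub_zero]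
      at h4
    apply hnotdvd r
    rw [← hN]
    exact hdouble r (pow_eq_zero_iff two_ne_zero |>.1 h4) h5
  have hdα := S.deg_left hα
  have hdβ := S.deg_right hβ
  have hm := S.two_le
  have hd6 := S.deg6
  have hsum := S.sum
  refine ⟨α, β, c, zA, zB, by omega, by omega, hc, hN, hv, fun i => hβne _ _ (S.pt i) (hv i), ?_, ?_, hA, hB, h1, h2⟩
  · apply hβroot
    rw [hN]
    simp
  · apply hβroot
    rw [hN]
    simp

end

end Vale.Agent.P297.Gen
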