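import Vale.Agent.P297.Gen.H516.Core
import Vale.Agent.P297.H878.Fibre
import Vale.Agent.P297.H878.Emb

/-!
From the sum of two points to twice a point.
-/

set_option linter.unusedSectionVars false
set_option linter.style.haveILetI false

open CategoryTheory AlgebraicGeometry IntermediateField Polynomial

namespace Vale.Agent.P297.Gen

open Vale.Agent.P297 Vale.Agent.P297.H839 Vale.Agent.P297.H516 Vale.Agent.P297.H878

section

variable {S : Scheme.{0}} {f : S ⟶ Spec (.of ℂ)} [IsProper f] {C : Type} [CommRing C] [Algebra ℂ C]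
  [Algebra.FiniteType ℂ C] {j : Spec (.of C) ⟶ S}
  {hj : j ≫ f = Spec.map (CommRingCat.ofHom (algebraMap ℂ C))}

theorem emb_ext {K N : Type} [Field K] [Algebra ℂ K] [Field N] [Algebra ℂ N] {l x y : K}
    (htop : IntermediateField.adjoin ℂ {l, x, y} = ⊤) {φ ψ : K →ₐ[ℂ] N} (hl : φ l = ψ l)
    (hx : φ x = ψ x) (hy : φ y = ψ y) : φ = ψ := by
  apply AlgHom.ext
  intro k
  have hk : k ∈ IntermediateField.adjoin ℂ ({l, x, y} : Set K) := by
    rw [htop]
    trivial
  induction hk using IntermediateField.adjoin_induction with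
  | mem a ha =>
    rcases ha with rfl | rfl | rfl
    · exact hl
    · exact hx
    · exact hy
  | algebraMap a => rw [AlgHom.commutes, AlgHom.commutes]
  | add a b _ _ ha hb => rw [map_add, map_add, ha, hb]
  | inv a _ ha => rw [map_inv₀, map_inv₀, ha]
  | mul a b _ _ ha hb => rw [map_mul, map_mul, ha, hb]

/-- A point and its conjugate. -/
theorem conj_good {K N : Type} [Field K] [Algebra ℂ K] [Field N] [Algebra ℂ N]
    {l x y : K} (hind : AlgebraicIndependent ℂ ![l, x])
    (htop : IntermediateField.adjoin ℂ {l, x, y} = ⊤)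
    (hy2 : y ^ 2 ∈ IntermediateField.adjoin ℂ (Set.range ![l, x])) {φ φ' : K →ₐ[ℂ] N}
    (hl : φ' l = φ l) (hx : φ' x = φ x) (hy : φ' y = - φ y) (hy0 : φ y ≠ 0) (ι : C →ₐ[ℂ] K) :
    Finsupp.single (φ.comp ι) (1 : ℤ) + Finsupp.single (φ'.comp ι) 1 ∈
      Good f j hj (Rat f) N := by
  haveI : CharZero N := charZero_of_injective_algebraMap (algebraMap ℂ N).injective
  have h := fibre_good (f := f) (j := j) (hj := hj)
    (IntermediateField.adjoin ℂ (Set.range ![l, x])) ⟨2, _, hind, rfl⟩ y (by
      rw [eq_top_iff, ← htop, IntermediateField.adjoin_le_iff]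
      rintro k (rfl | rfl | rfl)
      · exact (le_sup_left : _ ≤ IntermediateField.adjoin ℂ (Set.range ![k, x]) ⊔ _)
          (IntermediateField.subset_adjoin _ _ ⟨0, rfl⟩)
      · exact (le_sup_left : _ ≤ IntermediateField.adjoin ℂ (Set.range ![l, k]) ⊔ _)
          (IntermediateField.subset_adjoin _ _ ⟨1, rfl⟩)
      · exact (le_sup_right : IntermediateField.adjoin ℂ {k} ≤ _)
          (IntermediateField.mem_adjoin_simple_self ℂ _)) 2
    (X ^ 2 - Polynomial.C ⟨y ^ 2, hy2⟩) (monic_X_pow_sub_C _ two_ne_zero).ne_zero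
    natDegree_X_pow_sub_C.le (by
      simp only [map_sub, map_pow, aeval_X, aeval_C]
      exact sub_self _) ![φ, φ'] (by
      have h3 : ∀ k ∈ IntermediateField.adjoin ℂ (Set.range ![l, x]), φ' k = φ k := by
        intro k hk
        induction hk using IntermediateField.adjoin_induction with
        | mem a ha =>
          obtain ⟨m, rfl⟩ := ha
          fin_cases m
          · exact hl
          · exact hx
        | algebraMap a => rw [AlgHom.commutes, AlgHom.commutes]
        | add a b _ _ ha hb => rw [map_add, map_add, ha, hb]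
        | inv a _ ha => rw [map_inv₀, map_inv₀, ha]
        | mul a b _ _ ha hb => rw [map_mul, map_mul, ha, hb]
      intro i i' k hk
      fin_cases i <;> fin_cases i' <;> first
        | rfl | exact (h3 k hk).symm | exact h3 k hk) (by
      have h5 : φ y ≠ φ' y := by
        rw [hy]
        intro h6
        apply hy0
        have h7 : (2 : N) * φ y = 0 := by linear_combination h6
        exact (mul_eq_zero.1 h7).resolve_left two_ne_zero
      intro i i' hi
      fin_cases i <;> fin_cases i' <;> first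
        | rfl | exact absurd hi h5 | exact absurd hi h5.symm) ι
  rw [Fin.sum_univ_two] at h
  exact h

/-- **From the sum of two independent points to twice a point.** -/
theorem two_good {K N : Type} [Field K] [Algebra ℂ K] [Field N] [Algebra ℂ N] [IsAlgClosed N]
    {l x y : K} (hind : AlgebraicIndependent ℂ ![l, x])
    (htop : IntermediateField.adjoin ℂ {l, x, y} = ⊤)
    (hy2 : y ^ 2 ∈ IntermediateField.adjoin ℂ (Set.range ![l, x]))
    {fN : N[X]} (hs : fN.Separable) (hd : 0 < fN.natDegree)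
    (M : IntermediateField ℂ N) (hM : ∀ u : N, IsAlgebraic M u → u ∈ M)
    (hfM : ∀ k, fN.coeff k ∈ M) {φA φB : K →ₐ[ℂ] N} (hA : ∀ k, φA k ∈ M) (hlM : φB l ∈ M)
    (hB : φB x ∉ M) (hBy : (φB y) ^ 2 = fN.eval (φB x))
    (halg : ∀ u : N, IsAlgebraic (IntermediateField.adjoin M {φB x}) u) (ι : C →ₐ[ℂ] K)
    (hAB : Finsupp.single (φA.comp ι) (1 : ℤ) + Finsupp.single (φB.comp ι) 1 ∈
      Good f j hj (Rat f) N) :
    Finsupp.single (φA.comp ι) (2 : ℤ) ∈ Good f j hj (Rat f) N := by
  obtain ⟨F, hF⟩ : ∃ F : M[X], F.map (algebraMap M N) = fN := by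
    have h : fN ∈ Polynomial.lifts (algebraMap M N) := by
      rw [Polynomial.lifts_iff_coeff_lifts]
      intro k
      exact ⟨⟨_, hfM k⟩, rfl⟩
    exact (Polynomial.mem_lifts _).1 h
  have hFs : F.Separable := by
    rw [← hF, separable_map] at hs
    exact hs
  have hFd : 0 < F.natDegree := by
    rw [← hF, natDegree_map] at hd
    exact hd
  have hFe : (φB y) ^ 2 = Polynomial.aeval (φB x) F := by
    rw [hBy, ← hF, Polynomial.eval_map]
    rfl
  have hy0 : φB y ≠ 0 := by
    intro h0
    have h1 := sqrt_notMem M hM F hFs hFd hB hFe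
    apply h1
    rw [h0]
    exact zero_mem _
  obtain ⟨g, hgM, hgx, hgy⟩ := ext_emb M hM F hFs hFd hB hB hFe
    (by rw [neg_sq]; exact hFe : (-(φB y)) ^ 2 = _) halg halg
  have h1 := Good.map g.toAlgHom hAB
  rw [Finsupp.mapDomain_add, Finsupp.mapDomain_single, Finsupp.mapDomain_single] at h1
  have h2 : g.toAlgHom.comp (φA.comp ι) = φA.comp ι := by
    apply AlgHom.ext
    intro c
    exact hgM _ (hA (ι c))
  let φB' : K →ₐ[ℂ] N := g.toAlgHom.comp φB
  have h3 : g.toAlgHom.comp (φB.comp ι) = φB'.comp ι := rfl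
  rw [h2, h3] at h1
  have h4 := conj_good (f := f) (j := j) (hj := hj) hind htop hy2 (φ := φB) (φ' := φB')
    (hgM _ hlM) hgx hgy hy0 ι
  have h5 := AddSubgroup.sub_mem _ (AddSubgroup.add_mem _ hAB h1) h4
  have h6 : Finsupp.single (φA.comp ι) (1 : ℤ) + Finsupp.single (φB.comp ι) 1 +
      (Finsupp.single (φA.comp ι) 1 + Finsupp.single (φB'.comp ι) 1) -
      (Finsupp.single (φB.comp ι) 1 + Finsupp.single (φB'.comp ι) 1) =
      Finsupp.single (φA.comp ι) 2 := by
    have h7 : (Finsupp.single (φA.comp ι) (2 : ℤ)) = Finsupp.single (φA.comp ι) (1 : ℤ) +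
        Finsupp.single (φA.comp ι) 1 := by
      rw [← Finsupp.single_add]
      rfl
    rw [h7]
    abel
  rw [h6] at h5
  exact h5

end

end Vale.Agent.P297.Gen
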