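import Vale.Agent.P297.H729.Stable

/-!
Automorphisms of an algebraically closed field over a relatively closed subfield.
-/

set_option linter.unusedSectionVars false
set_option linter.style.haveILetI false

open IntermediateField Polynomial

namespace Vale.Agent.P297.Gen

open Vale.Agent.P297.H729

section

variable {N : Type} [Field N] [Algebra ℂ N]

/-- A relatively closed subfield of an algebraically closed field has roots of polynomials. -/
theorem exists_root_mem [IsAlgClosed N] (M : IntermediateField ℂ N)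
    (hM : ∀ x : N, IsAlgebraic M x → x ∈ M) (p : M[X]) (hp : 0 < p.natDegree) :
    ∃ r : M, p.IsRoot r := by
  have h1 : (p.map (algebraMap M N)).degree ≠ 0 := by
    rw [Polynomial.degree_map]
    intro h0
    rw [Polynomial.natDegree_eq_of_degree_eq_some h0] at hp
    exact lt_irrefl _ hp
  obtain ⟨r, hr⟩ := IsAlgClosed.exists_root _ h1
  have h2 : Polynomial.aeval r p = 0 := by
    rw [Polynomial.IsRoot, Polynomial.eval_map] at hr
    exact hr
  have h3 : IsAlgebraic M r := ⟨p, by rintro rfl; simp at hp, h2⟩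
  refine ⟨⟨r, hM r h3⟩, ?_⟩
  apply (algebraMap M N).injective
  rw [map_zero, ← Polynomial.aeval_algebraMap_apply_eq_algebraMap_eval]
  exact h2

/-- A separable polynomial with a root is not a square. -/
theorem not_sq {k : Type} [Field k] {F : k[X]} (hF : F.Separable) {r : k} (hr : F.IsRoot r)
    {p q : k[X]} (hq : q ≠ 0) (h : p ^ 2 = F * q ^ 2) : False := by
  have hF0 : F ≠ 0 := hF.ne_zero
  have hp : p ≠ 0 := by
    rintro rfl
    rw [zero_pow two_ne_zero] at h
    exact mul_ne_zero hF0 (pow_ne_zero 2 hq) h.symm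
  have h1 : rootMultiplicity r F = 1 :=
    le_antisymm (rootMultiplicity_le_one_of_separable hF r)
      ((rootMultiplicity_pos hF0).2 hr)
  have h2 := congrArg (rootMultiplicity r) h
  rw [pow_two, pow_two, rootMultiplicity_mul (mul_ne_zero hp hp),
    rootMultiplicity_mul (mul_ne_zero hF0 (mul_ne_zero hq hq)),
    rootMultiplicity_mul (mul_ne_zero hq hq), h1] at h2
  omega

theorem sqrt_notMem [IsAlgClosed N] (M : IntermediateField ℂ N)
    (hM : ∀ x : N, IsAlgebraic M x → x ∈ M) (F : M[X]) (hF : F.Separable) (hd : 0 < F.natDegree)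
    {z y : N} (hz : z ∉ M) (hy : y ^ 2 = Polynomial.aeval z F) :
    y ∉ IntermediateField.adjoin M {z} := by
  have htr : Transcendental M z := fun h => hz (hM z h)
  intro hmem
  obtain ⟨r, s, hrs⟩ := (IntermediateField.mem_adjoin_simple_iff M y).1 hmem
  obtain ⟨ρ, hρ⟩ := exists_root_mem M hM F hd
  have hinj : ∀ p : M[X], Polynomial.aeval z p = 0 → p = 0 := by
    intro p hp
    by_contra hne
    exact htr ⟨p, hne, hp⟩
  by_cases hs : Polynomial.aeval z s = 0
  · rw [hs, div_zero] at hrs
    rw [hrs, zero_pow two_ne_zero] at hy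
    exact hF.ne_zero (hinj F hy.symm)
  · have hs0 : s ≠ 0 := by
      rintro rfl
      exact hs (map_zero _)
    refine not_sq hF hρ (p := r) (q := s) hs0 ?_
    rw [← sub_eq_zero]
    apply hinj
    rw [map_sub, map_mul, map_pow, map_pow, ← hy, hrs]
    field_simp
    ring

/-- Two transcendental elements over which everything is algebraic are conjugate. -/
theorem exists_move [IsAlgClosed N] (M : IntermediateField ℂ N) {z z' : N}
    (hz : Transcendental M z) (hz' : Transcendental M z')
    (halg : ∀ u : N, IsAlgebraic (IntermediateField.adjoin M {z}) u)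
    (halg' : ∀ u : N, IsAlgebraic (IntermediateField.adjoin M {z'}) u) :
    ∃ g : N ≃ₐ[M] N, g z = z' := by
  have hi : AlgebraicIndependent M ![z] := algebraicIndependent_unique_type_iff.2 hz
  have hi' : AlgebraicIndependent M ![z'] := algebraicIndependent_unique_type_iff.2 hz'
  have hr : Set.range ![z] = {z} := by simp
  have hr' : Set.range ![z'] = {z'} := by simp
  rw [← hr] at halg
  rw [← hr'] at halg'
  haveI : Algebra.IsAlgebraic (IntermediateField.adjoin M (Set.range ![z])) N := ⟨halg⟩
  haveI : Algebra.IsAlgebraic (IntermediateField.adjoin M (Set.range ![z'])) N := ⟨halg'⟩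
  haveI : IsAlgClosure (IntermediateField.adjoin M (Set.range ![z])) N :=
    ⟨inferInstance, inferInstance⟩
  haveI : IsAlgClosure (IntermediateField.adjoin M (Set.range ![z'])) N :=
    ⟨inferInstance, inferInstance⟩
  let e : IntermediateField.adjoin M (Set.range ![z]) ≃ₐ[M]
      IntermediateField.adjoin M (Set.range ![z']) :=
    hi.aevalEquivField.symm.trans hi'.aevalEquivField
  let g := IsAlgClosure.equivOfEquiv N N e.toRingEquiv
  have hg : ∀ s : IntermediateField.adjoin M (Set.range ![z]), g (s : N) = (e s : N) := fun s =>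
    IsAlgClosure.equivOfEquiv_algebraMap N N e.toRingEquiv s
  refine ⟨{ g with commutes' := fun m => ?_ }, ?_⟩
  · change g (algebraMap M N m) = algebraMap M N m
    have h1 := hg (algebraMap M _ m)
    rw [e.commutes] at h1
    exact h1
  · change g z = z'
    have h1 := hg ⟨z, IntermediateField.subset_adjoin _ _ ⟨0, rfl⟩⟩
    have h2 : hi.aevalEquivField (algebraMap (MvPolynomial (Fin 1) M)
        (FractionRing (MvPolynomial (Fin 1) M)) (MvPolynomial.X 0)) =
        ⟨z, IntermediateField.subset_adjoin _ _ ⟨0, rfl⟩⟩ := by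
      apply Subtype.ext
      rw [AlgebraicIndependent.aevalEquivField_algebraMap_apply_coe, MvPolynomial.aeval_X]
      rfl
    have h3 : (e ⟨z, IntermediateField.subset_adjoin _ _ ⟨0, rfl⟩⟩ : N) = z' := by
      change ((hi'.aevalEquivField (hi.aevalEquivField.symm _) :
        IntermediateField.adjoin M (Set.range ![z'])) : N) = z'
      rw [← h2, AlgEquiv.symm_apply_apply,
        AlgebraicIndependent.aevalEquivField_algebraMap_apply_coe, MvPolynomial.aeval_X]
      rfl
    rw [h3] at h1
    exact h1

theorem exists_flip [IsAlgClosed N] (E : Type) [Field E] [Algebra E N] [CharZero E]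
    (halg : ∀ u : N, IsAlgebraic E u) {y : N} (hy : y ∉ Set.range (algebraMap E N))
    (hy2 : y ^ 2 ∈ Set.range (algebraMap E N)) : ∃ g : N ≃ₐ[E] N, g y = -y := by
  haveI : Algebra.IsAlgebraic E N := ⟨halg⟩
  haveI : IsAlgClosure E N := ⟨inferInstance, inferInstance⟩
  haveI : IsGalois E N := inferInstance
  rw [InfiniteGalois.mem_range_algebraMap_iff_fixed] at hy
  push Not at hy
  obtain ⟨g, hg⟩ := hy
  refine ⟨g, ?_⟩
  obtain ⟨e, he⟩ := hy2
  have h1 : g y ^ 2 = y ^ 2 := by rw [← map_pow, ← he, g.commutes]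
  rcases sq_eq_sq_iff_eq_or_eq_neg.1 h1 with h2 | h2
  · exact absurd h2 hg
  · exact h2

/-- **Conjugation of points.** -/
theorem ext_emb [IsAlgClosed N] (M : IntermediateField ℂ N)
    (hM : ∀ x : N, IsAlgebraic M x → x ∈ M) (F : M[X]) (hF : F.Separable) (hd : 0 < F.natDegree)
    {z z' y y' : N} (hz : z ∉ M) (hz' : z' ∉ M) (hy : y ^ 2 = Polynomial.aeval z F)
    (hy' : y' ^ 2 = Polynomial.aeval z' F)
    (halg : ∀ u : N, IsAlgebraic (IntermediateField.adjoin M {z}) u)
    (halg' : ∀ u : N, IsAlgebraic (IntermediateField.adjoin M {z'}) u) :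
    ∃ g : N ≃ₐ[ℂ] N, (∀ x ∈ M, g x = x) ∧ g z = z' ∧ g y = y' := by
  haveI : CharZero M := charZero_of_injective_algebraMap (algebraMap ℂ M).injective
  obtain ⟨g, hg⟩ := exists_move M (fun h => hz (hM z h)) (fun h => hz' (hM z' h)) halg halg'
  have h1 : (g y) ^ 2 = y' ^ 2 := by
    rw [← map_pow, hy, hy', ← hg]
    exact (Polynomial.aeval_algHom_apply g.toAlgHom z F).symm
  rcases sq_eq_sq_iff_eq_or_eq_neg.1 h1 with h2 | h2
  · refine ⟨g.restrictScalars ℂ, fun x hx => g.commutes ⟨x, hx⟩, hg, h2⟩
  · have hnot := sqrt_notMem M hM F hF hd hz' hy'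
    haveI : CharZero (IntermediateField.adjoin M {z'}) :=
      charZero_of_injective_algebraMap (algebraMap M (IntermediateField.adjoin M {z'})).injective
    obtain ⟨e, he⟩ := exists_flip (IntermediateField.adjoin M {z'}) halg' (y := y') (by
      rintro ⟨w, hw⟩
      apply hnot
      rw [← hw]
      exact w.2) (by
      refine ⟨⟨y' ^ 2, ?_⟩, rfl⟩
      rw [hy']
      exact IntermediateField.algebra_adjoin_le_adjoin _ _
        (Polynomial.aeval_mem_adjoin_singleton M z'))
    have heM : ∀ m : M, e (algebraMap M N m) = algebraMap M N m := fun m =>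
      e.commutes (algebraMap M _ m)
    let e' : N ≃ₐ[ℂ] N := { e with commutes' := fun c => heM (algebraMap ℂ M c) }
    refine ⟨(g.restrictScalars ℂ).trans e', fun x hx => ?_, ?_, ?_⟩
    · change e (g x) = x
      have h3 : g x = x := g.commutes ⟨x, hx⟩
      rw [h3]
      exact heM ⟨x, hx⟩
    · change e (g z) = z'
      rw [hg]
      exact e.commutes ⟨z', IntermediateField.mem_adjoin_simple_self M z'⟩
    · change e (g y) = y'
      rw [h2, map_neg, he, neg_neg]

end

end Vale.Agent.P297.Gen
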