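import Vale.Agent.P297.H516.Glue

/-!
The family glued from two Hesse pencils, as a pencil of the first family.
-/

set_option linter.unusedSectionVars false
set_option linter.style.haveILetI false

open CategoryTheory AlgebraicGeometry IntermediateField Polynomial

namespace Vale.Agent.P297.Gen

open Vale.Agent.P297 Vale.Agent.P297.H839 Vale.Agent.P297.H516 Vale.Agent.P297.H878

section

variable {K : Type} [Field K] [Algebra ℂ K]

/-- The Hesse family is a special case of the first family. -/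
theorem glue_red {α β γ δ : ℂ} {l m Z Y : K} (h : Moebius α β γ δ l m)
    (hind : AlgebraicIndependent ℂ ![l, Z]) (hY : Y ^ 2 = Wf l m * Pf l m Z * Qf l m Z)
    (htop : IntermediateField.adjoin ℂ {l, Z, Y} = ⊤) :
    ∃ y t a b c d : K, t ∈ IntermediateField.adjoin ℂ {l} ∧ a ∈ IntermediateField.adjoin ℂ {l} ∧
      b ∈ IntermediateField.adjoin ℂ {l} ∧ c ∈ IntermediateField.adjoin ℂ {l} ∧
      d ∈ IntermediateField.adjoin ℂ {l} ∧ t ≠ 0 ∧ 12 * a * c + 16 * b * d = 1 ∧
      a ^ 3 + b ^ 2 ≠ 0 ∧ c ^ 3 + d ^ 2 ≠ 0 ∧ t * y ^ 2 = pp a b Z * qq c d Z ∧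
      IntermediateField.adjoin ℂ {l, Z, y} = ⊤ ∧
      IsRational (IntermediateField.adjoin ℂ
        {l, (c - 2 * d * Z) / pp a b Z, y * mm c d Z / pp a b Z ^ 2}) ∧
      IsRational (IntermediateField.adjoin ℂ
        {l, Z ^ 2 * (a * Z - 2 * b) / qq c d Z, y * nn a b Z / qq c d Z ^ 2}) := by
  haveI : CharZero K := charZero_of_injective_algebraMap (algebraMap ℂ K).injective
  have hl : Transcendental ℂ l := ((pair_iff l Z).1 hind).1
  have hm : Transcendental ℂ m := h.transcendental hl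
  have hD := D_ne hind
  have hE := D_ne (h.indep hind)
  have hW := h.W_ne hl
  obtain ⟨s, hs⟩ := IsAlgClosed.exists_pow_nat_eq (-1 / 48 : ℂ) (n := 2) two_pos
  have hs0 : s ≠ 0 := by
    rintro rfl
    norm_num at hs
  have hs' : algebraMap ℂ K s ^ 2 = -1 / 48 := by
    rw [← map_pow, hs, map_div₀, map_neg, map_one, map_ofNat]
  have hs0' : algebraMap ℂ K s ≠ 0 := by
    intro h0
    exact hs0 ((algebraMap ℂ K).injective (by rw [h0, map_zero]))
  set c := (1 - l ^ 3) * (1 - m ^ 3) * Wf l m with hc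
  have hc0 : c ≠ 0 := mul_ne_zero (mul_ne_zero hD hE) hW
  set y := algebraMap ℂ K s * Y / c with hy
  have hyc : y * c = algebraMap ℂ K s * Y := by rw [hy, div_mul_cancel₀ _ hc0]
  have hYy : Y = y * c / algebraMap ℂ K s := by
    rw [hyc, mul_div_cancel_left₀ _ hs0']
  have hlm : l ∈ IntermediateField.adjoin ℂ {l} := IntermediateField.mem_adjoin_simple_self ℂ l
  have hmm := h.mem hl
  have hy2 : tf l m * y ^ 2 = pp (af l m) (bf l m) Z * qq (af m l) (bf m l) Z := by
    have h16 : (16 : K) * (1 - l ^ 3) * (1 - m ^ 3) ≠ 0 :=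
      mul_ne_zero (mul_ne_zero (by norm_num) hD) hE
    apply mul_left_cancel₀ (mul_ne_zero h16 hc0)
    have h1 : 16 * (1 - l ^ 3) * (1 - m ^ 3) * (pp (af l m) (bf l m) Z *
        qq (af m l) (bf m l) Z) = Pf l m Z * Qf l m Z := by
      rw [← pp_eq hE, ← qq_eq hD]
      ring
    have h2 : 16 * (1 - l ^ 3) * (1 - m ^ 3) * c * (tf l m * y ^ 2) =
        -48 * (1 - l ^ 3) * (1 - m ^ 3) * (y * c) ^ 2 := by
      unfold tf
      rw [hc]
      ring
    have h3 : 16 * (1 - l ^ 3) * (1 - m ^ 3) * c * (pp (af l m) (bf l m) Z *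
        qq (af m l) (bf m l) Z) = c * (Pf l m Z * Qf l m Z) := by
      rw [← h1]
      ring
    rw [h2, h3, hyc, mul_pow, hs', hY, hc]
    ring
  refine ⟨y, tf l m, af l m, bf l m, af m l, bf m l, ?_, mem_af hlm hmm,
    mem_bf hlm hmm, mem_af hmm hlm, mem_bf hmm hlm, ?_, ab_eq hD hE, ?_, ?_, hy2, ?_,
    side_one hind hmm hD hE hW hy2, side_two h hind hy2⟩
  · unfold tf
    exact mul_mem (mul_mem (mul_mem (neg_mem (ofNat_mem _ 3)) (mem_D hlm)) (mem_D hmm))
      (mem_W hlm hmm)
  · unfold tf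
    exact mul_ne_zero (mul_ne_zero (mul_ne_zero (by norm_num) hD) hE) hW
  · intro h0
    have h1 := disc_eq (l := l) hE
    rw [h0, mul_zero] at h1
    exact pow_ne_zero 2 hW h1.symm
  · intro h0
    have h1 := disc_eq (l := m) hD
    rw [h0, mul_zero, Wf_comm] at h1
    exact pow_ne_zero 2 hW h1.symm
  · rw [eq_top_iff, ← htop, IntermediateField.adjoin_le_iff]
    have hl1 : l ∈ IntermediateField.adjoin ℂ {l, Z, y} :=
      IntermediateField.subset_adjoin _ _ (by simp)
    have hm1 : m ∈ IntermediateField.adjoin ℂ {l, Z, y} := by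
      refine (IntermediateField.adjoin.mono ℂ _ _ ?_) hmm
      intro x hx
      rw [Set.mem_singleton_iff.1 hx]
      simp
    have hy1 : y ∈ IntermediateField.adjoin ℂ {l, Z, y} :=
      IntermediateField.subset_adjoin _ _ (by simp)
    rintro x (hx | hx | hx)
    · rw [hx]; exact hl1
    · rw [hx]; exact IntermediateField.subset_adjoin _ _ (by simp)
    · rw [Set.mem_singleton_iff.1 hx, hYy]
      exact div_mem (mul_mem hy1 (mul_mem (mul_mem (mem_D hl1) (mem_D hm1)) (mem_W hl1 hm1)))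
        (IntermediateField.algebraMap_mem _ _)

end

end Vale.Agent.P297.Gen
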