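import Vale.Agent.P297.Gen.H516.Hesse
import Vale.Agent.P297.Gen.H878.Three

/-!
The family glued from two Hesse pencils, integral coefficients.
-/

set_option linter.unusedSectionVars false
set_option linter.style.haveILetI false

open CategoryTheory AlgebraicGeometry IntermediateField Polynomial

namespace Vale.Agent.P297.Gen

open Vale.Agent.P297 Vale.Agent.P297.H839 Vale.Agent.P297.H516 Vale.Agent.P297.H878

/-- **The family glued from two Hesse pencils.** -/
theorem glue_one {K : Type} [Field K] [Algebra ℂ K] {α β γ δ : ℂ} {l m Z Y : K}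
    (h : Moebius α β γ δ l m) (hind : AlgebraicIndependent ℂ ![l, Z])
    (hY : Y ^ 2 = Wf l m * Pf l m Z * Qf l m Z)
    (htop : IntermediateField.adjoin ℂ {l, Z, Y} = ⊤) : PointsEquivalent K := by
  obtain ⟨y, t, a, b, c, d, ht, ha, hb, hc, hd, ht0, habcd, hD₁, hD₂, hy, htop', h1, h2⟩ :=
    glue_red h hind hY htop
  exact three_split l Z y hind t a b c d ht ha hb hc hd ht0 habcd hD₁ hD₂ hy htop' h1 h2

end Vale.Agent.P297.Gen
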