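import Vale.Agent.P297.Gen.Block
import Vale.Agent.P297.Gen.H516.End
import Vale.Agent.P297.Gen.H878.Div
import Vale.Agent.P297.H839.Crit
import Vale.Agent.P297.H839.Points
import Mathlib.RingTheory.AlgebraicIndependent.TranscendenceBasis

/-!
The last step of the general theorem.
-/

set_option linter.unusedSectionVars false
set_option linter.style.haveILetI false

open CategoryTheory AlgebraicGeometry IntermediateField Polynomial

namespace Vale.Agent.P297.Gen

open Vale.Agent.P297 Vale.Agent.P297.H839 Vale.Agent.P297.H516 Vale.Agent.P297.H878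

theorem Pencil.isDouble {K : Type} [Field K] [Algebra ℂ K] {l x y : K}
    {f : (IntermediateField.adjoin ℂ {l})[X]} (h : Pencil l x y f) : IsDouble K := by
  refine ⟨IntermediateField.adjoin ℂ (Set.range ![l, x]), y, ⟨2, _, h.ind, rfl⟩, h.sq_mem, ?_⟩
  rw [eq_top_iff, ← h.top, IntermediateField.adjoin_le_iff]
  rintro k (rfl | rfl | rfl)
  · exact IntermediateField.subset_adjoin _ _
      (Or.inl (IntermediateField.subset_adjoin _ _ ⟨0, rfl⟩))
  · exact IntermediateField.subset_adjoin _ _
      (Or.inl (IntermediateField.subset_adjoin _ _ ⟨1, rfl⟩))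
  · exact IntermediateField.subset_adjoin _ _ (Or.inr rfl)

theorem alg_mono {N : Type} [Field N] {A F : Type} [CommRing A] [Field F] [Algebra A N]
    [Algebra F N] (ι : A →+* F) (hι : ∀ a, algebraMap F N (ι a) = algebraMap A N a)
    (hinj : Function.Injective ι) {v : N} (hv : IsAlgebraic A v) : IsAlgebraic F v := by
  obtain ⟨p, hp0, hp⟩ := hv
  refine ⟨p.map ι, ?_, ?_⟩
  · rwa [Ne, Polynomial.map_eq_zero_iff hinj]
  · have h1 : (algebraMap F N).comp ι = algebraMap A N := RingHom.ext hι
    rw [Polynomial.aeval_def] at hp ⊢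
    rw [Polynomial.eval₂_map, h1]
    exact hp

theorem alg_of_le {N : Type} [Field N] [Algebra ℂ N] {k : Type} [Field k] [Algebra k N]
    (A : Subalgebra ℂ N) (F : IntermediateField k N) (h : ∀ a ∈ A, a ∈ F) {v : N}
    (hv : IsAlgebraic A v) : IsAlgebraic F v :=
  alg_mono
    { toFun := fun a : A => (⟨a, h a a.2⟩ : F)
      map_one' := rfl
      map_zero' := rfl
      map_mul' := fun _ _ => rfl
      map_add' := fun _ _ => rfl } (fun _ => rfl)
    (fun _ _ hab => Subtype.ext (congrArg (fun u : F => (u : N)) hab)) hv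

/-- Three independent elements of a field of transcendence degree three. -/
theorem three_alg {N : Type} [Field N] [Algebra ℂ N] (h3 : Algebra.trdeg ℂ N ≤ 3) {l u z : N}
    (hlu : AlgebraicIndependent ℂ ![l, u]) (M : IntermediateField ℂ N)
    (hM : ∀ v : N, IsAlgebraic M v → v ∈ M) (hl : l ∈ M) (hu : u ∈ M) (hz : z ∉ M) (v : N) :
    IsAlgebraic (IntermediateField.adjoin M {z}) v := by
  have hr : Algebra.adjoin ℂ (Set.range ![l, u]) ≤ M.toSubalgebra := by
    rw [Algebra.adjoin_le_iff]
    rintro _ ⟨i, rfl⟩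
    fin_cases i
    · exact hl
    · exact hu
  have htr : Transcendental (Algebra.adjoin ℂ (Set.range ![l, u])) z := fun h =>
    hz (hM _ (alg_of_le _ M (fun a ha => hr ha) h))
  have hi : AlgebraicIndependent ℂ (fun o : Option (Fin 2) => o.elim z ![l, u]) :=
    (AlgebraicIndependent.option_iff (R := ℂ) (x := ![l, u]) (a := z)).2 ⟨hlu, htr⟩
  have hb := hi.isTranscendenceBasis_of_trdeg_le_of_finite (by
    rw [Cardinal.mk_option, Cardinal.mk_fin]
    refine h3.trans (le_of_eq ?_)
    norm_num)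
  have halg := hb.isAlgebraic
  have hle : Algebra.adjoin ℂ (Set.range fun o : Option (Fin 2) => o.elim z ![l, u]) ≤
      ((IntermediateField.adjoin M {z}).restrictScalars ℂ).toSubalgebra := by
    rw [Algebra.adjoin_le_iff]
    rintro _ ⟨i, rfl⟩
    rcases i with _ | i
    · exact IntermediateField.mem_adjoin_simple_self M z
    · fin_cases i
      · exact (IntermediateField.adjoin M {z}).algebraMap_mem ⟨l, hl⟩
      · exact (IntermediateField.adjoin M {z}).algebraMap_mem ⟨u, hu⟩
  exact alg_of_le _ _ (fun a ha => hle ha) (halg.isAlgebraic v)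

/-- The points over a closed subfield. -/
theorem Pencil.mem_closed {K N : Type} [Field K] [Algebra ℂ K] [Field N] [Algebra ℂ N] {l x y : K}
    {f : (IntermediateField.adjoin ℂ {l})[X]} (h : Pencil l x y f) (φ : K →ₐ[ℂ] N)
    (M : IntermediateField ℂ N) (hM : ∀ v : N, IsAlgebraic M v → v ∈ M) (hl : φ l ∈ M)
    (hx : φ x ∈ M) (k : K) : φ k ∈ M := by
  have h1 : IntermediateField.adjoin ℂ (Set.range ![l, x]) ≤ M.comap φ := by
    rw [IntermediateField.adjoin_le_iff]
    rintro _ ⟨i, rfl⟩
    fin_cases i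
    · exact hl
    · exact hx
  have hy : φ y ∈ M := by
    apply hM
    refine ⟨X ^ 2 - Polynomial.C ⟨φ (y ^ 2), h1 h.sq_mem⟩,
      (monic_X_pow_sub_C _ two_ne_zero).ne_zero, ?_⟩
    simp only [map_sub, map_pow, aeval_X, aeval_C]
    exact sub_self _
  have hk : k ∈ IntermediateField.adjoin ℂ ({l, x, y} : Set K) := by
    rw [h.top]
    trivial
  have h2 : IntermediateField.adjoin ℂ ({l, x, y} : Set K) ≤ M.comap φ := by
    rw [IntermediateField.adjoin_le_iff]
    rintro a (rfl | rfl | rfl)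
    · exact hl
    · exact hx
    · exact hy
  exact h2 hk

section

variable {S : Scheme.{0}} {g : S ⟶ Spec (.of ℂ)} [IsProper g] {C : Type} [CommRing C] [Algebra ℂ C]
  [Algebra.FiniteType ℂ C] {j : Spec (.of C) ⟶ S}
  {hj : j ≫ g = Spec.map (CommRingCat.ofHom (algebraMap ℂ C))}

/-- From the residual points to twice a point, for a pencil. -/
theorem Pencil.two {K N : Type} [Field K] [Algebra ℂ K] [Field N] [Algebra ℂ N] [IsAlgClosed N]
    {l x y : K} {f : (IntermediateField.adjoin ℂ {l})[X]} (h : Pencil l x y f)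
    (h3 : Algebra.trdeg ℂ N ≤ 3) (lam : IntermediateField.adjoin ℂ {l} →ₐ[ℂ] N)
    (L : IntermediateField ℂ N) (hlamL : ∀ e, lam e ∈ L) (φA φB : K →ₐ[ℂ] N)
    (hA : ∀ e : IntermediateField.adjoin ℂ {l}, φA e = lam e)
    (hB : ∀ e : IntermediateField.adjoin ℂ {l}, φB e = lam e)
    (hcl : ¬ Cl L {φA x} (φB x)) (ι : C →ₐ[ℂ] K)
    (hAB : Finsupp.single (φA.comp ι) (1 : ℤ) + Finsupp.single (φB.comp ι) 1 ∈
      Good g j hj (Rat g) N) :
    Finsupp.single (φA.comp ι) (2 : ℤ) ∈ Good g j hj (Rat g) N := by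
  obtain ⟨M, hM, hLM, hxM, hBM⟩ : ∃ M : IntermediateField ℂ N,
      (∀ u : N, IsAlgebraic M u → u ∈ M) ∧ L ≤ M ∧ {φA x} ⊆ (M : Set N) ∧ φB x ∉ M := by
    by_contra hne
    apply hcl
    intro M hM hLM hxM
    by_contra hBM
    exact hne ⟨M, hM, hLM, hxM, hBM⟩
  have hlA : φA l ∈ M := by
    have h1 := hA ⟨l, IntermediateField.mem_adjoin_simple_self ℂ l⟩
    change φA l = _ at h1
    rw [h1]
    exact hLM (hlamL _)
  have hlB : φB l ∈ M := by
    have h1 := hB ⟨l, IntermediateField.mem_adjoin_simple_self ℂ l⟩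
    change φB l = _ at h1
    rw [h1]
    exact hLM (hlamL _)
  have hxA : φA x ∈ M := hxM rfl
  have hAM := h.mem_closed φA M hM hlA hxA
  have hind : AlgebraicIndependent ℂ ![φA l, φA x] := by
    have h2 := h.ind.map' (f := φA) φA.toRingHom.injective
    have h3 : (⇑φA ∘ ![l, x]) = ![φA l, φA x] := by
      funext i
      fin_cases i <;> rfl
    rwa [h3] at h2
  refine two_good (f := g) (j := j) (hj := hj) h.ind h.top h.sq_mem
    (fN := f.map lam.toRingHom) (h.sep.map (f := lam.toRingHom)) (by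
      rw [natDegree_map]
      have := h.five
      omega) M hM (fun k => by
      rw [coeff_map]
      exact hLM (hlamL _)) hAM hlB hBM ?_ (three_alg h3 hind M hM hlA hxA hBM) ι hAB
  rw [← map_pow, h.eq, Polynomial.aeval_def, Polynomial.eval_map]
  refine (Polynomial.hom_eval₂ f _ φB.toRingHom x).trans ?_
  congr 1
  exact RingHom.ext fun e => hB e

end

end Vale.Agent.P297.Gen
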